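import Mathlib
import Vale.Agent.P170.Main

namespace Vale.Agent.Results.P170.Threshold

open Filter Topology

/-- The proper `k`-clauses on the variables `Fin n`: sets of exactly `k` literals on `k` distinct
variables. The literal `(i, true)` is `x_i` and `(i, false)` is its negation. -/
def Clauses (k n : ℕ) : Finset (Finset (Fin n × Bool)) :=
  Finset.univ.filter fun c => c.card = k ∧ ∀ l ∈ c, ∀ l' ∈ c, l.1 = l'.1 → l = l'

/-- A list of `m` clauses is satisfiable if some assignment makes a literal of each clause true. -/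
def Satisfiable {n m : ℕ} (F : Fin m → Finset (Fin n × Bool)) : Prop :=
  ∃ x : Fin n → Bool, ∀ i, ∃ l ∈ F i, x l.1 = l.2

open Classical in
/-- The probability that `m` independent uniform proper `k`-clauses on `n` variables (sampled with
replacement) form a satisfiable formula: the proportion of satisfiable `m`-tuples of clauses. -/
noncomputable def satProb (k n m : ℕ) : ℝ :=
  (((Fintype.piFinset fun _ : Fin m => Clauses k n).filter Satisfiable).card : ℝ) /
    ((Fintype.piFinset fun _ : Fin m => Clauses k n).card : ℝ)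

lemma satProb_eq (k n m : ℕ) : satProb k n m = Vale.Agent.P170.pr k n m := by
  classical
  have e : Clauses k n = Vale.Agent.P170.Cl Finset.univ k := by
    ext c; simp [Clauses, Vale.Agent.P170.Cl]
  rw [satProb, Vale.Agent.P170.pr, Vale.Agent.P170.Pc, Vale.Agent.P170.avg_pow, e,
    Finset.card_filter]
  congr 1
  · push_cast
    refine Finset.sum_congr rfl fun F _ => ?_
    unfold Vale.Agent.P170.u
    refine if_congr ?_ rfl rfl
    simp [Satisfiable, Set.Nonempty, Vale.Agent.P170.sat]
  · simp

theorem result (k : ℕ) (hk : 3 ≤ k) : ∃ α : ℝ, 0 < α ∧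
    (∀ c : ℝ, 0 ≤ c → c < α → Tendsto (fun n : ℕ => satProb k n ⌊c * n⌋₊) atTop (𝓝 1)) ∧
    (∀ c : ℝ, α < c → Tendsto (fun n : ℕ => satProb k n ⌊c * n⌋₊) atTop (𝓝 0)) := by
  simp only [satProb_eq]
  exact Vale.Agent.P170.threshold k hk

end Vale.Agent.Results.P170.Threshold
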